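import Vale.Agent.Lib.P111.Uniform
import Vale.Agent.Lib.P111.OpForm

namespace Vale.Agent.Results.P111.A_Sandwich

open Vale.Agent.Lib.P111

/-- The cotype-cotype conjecture lies between two uniform finite-dimensional statements (the
operator form implies it, it implies the space form), it is equivalent to its own quantitative
form, and the space form is equivalent to the conjecture for spaces with a dense increasing
family of uniformly complemented finite-dimensional subspaces. -/
theorem result : (FinDimOpForm → Conj) ∧ (Conj ↔ UniformForm) ∧ (Conj → FinDimForm) ∧
    (FinDimForm ↔ ConjPi) :=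
  ⟨conj_of_finDimOp, ⟨uniform_of_conj, conj_of_uniform⟩,
    fun h => finDim_of_conjPi (conjPi_of_conj h), ⟨conjPi_of_finDim, finDim_of_conjPi⟩⟩

end Vale.Agent.Results.P111.A_Sandwich
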