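import Vale.Agent.Lib.P111.Uniform

namespace Vale.Agent.Results.P111.A_Uniformity

open Vale.Agent.Lib.P111

/-- The cotype-cotype conjecture is equivalent to its quantitative form; it implies the uniform
finite-dimensional form, which in turn is equivalent to the conjecture for spaces with a dense
increasing family of uniformly complemented finite-dimensional subspaces. -/
theorem result : (Conj ↔ UniformForm) ∧ (Conj → FinDimForm) ∧ (FinDimForm ↔ ConjPi) :=
  ⟨⟨uniform_of_conj, conj_of_uniform⟩, fun h => finDim_of_conjPi (conjPi_of_conj h),
    ⟨conjPi_of_finDim, finDim_of_conjPi⟩⟩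

end Vale.Agent.Results.P111.A_Uniformity
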