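import Vale.Agent.Lib.P111.Main

namespace Vale.Agent.Results.P111.FiniteDimReduction

open Vale.Agent.Lib.P111

/-- The cotype-cotype conjecture implies the uniform finite-dimensional form, which is equivalent
to the conjecture for spaces with a dense increasing family of uniformly complemented
finite-dimensional subspaces. -/
theorem result : (Conj → FinDimForm) ∧ (FinDimForm ↔ ConjPi) :=
  ⟨fun h => finDim_of_conjPi (conjPi_of_conj h), ⟨conjPi_of_finDim, finDim_of_conjPi⟩⟩

end Vale.Agent.Results.P111.FiniteDimReduction
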